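import Vale.Agent.P075.Final

namespace Vale.Agent.Results.P075.Main

open MeasureTheory Vale.Agent.P075

/-- The dyadic triangular Hilbert form is uniformly bounded on `L^3 × L^3 × L^3`. -/
theorem result : ∃ C : ℝ, ∀ (S : Finset ℤ) (ε : ℤ → ℝ) (F : Fin 3 → ℝ × ℝ → ℝ),
    (∀ k ∈ S, |ε k| ≤ 1) → (∀ v, AEMeasurable (F v) volume) → (∀ v, ∃ B, ∀ p, |F v p| ≤ B) →
    (∀ v, HasCompactSupport (F v)) →
    (∀ k, Summable fun n : Adm => Lform F k n) ∧ |Lam S ε F| ≤ C * ∏ v, nrm3 (F v) :=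
  ⟨192, main⟩

end Vale.Agent.Results.P075.Main
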